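import Mathlib

/-!
P048: the cycle-complete Ramsey bound for graphs whose chromatic number is at most their clique
number (in particular perfect graphs), and more generally with `χ ≤ max (ω, m - 1)`.
-/

namespace Vale.Agent.Results.P048.ChromaticClique
open Finset

theorem clique_contains {V : Type} (G : SimpleGraph V) (m : ℕ) (s : Finset V)
    (hs : G.IsNClique m s) : (SimpleGraph.cycleGraph m).IsContained G := by
  obtain ⟨hc, hm⟩ := hs
  let e : Fin m ≃ s := (Fintype.equivFinOfCardEq (by simp [hm])).symm
  refine ⟨⟨⟨fun i => (e i : V), ?_⟩, ?_⟩⟩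
  · intro a b hab
    refine hc (e a).2 (e b).2 ?_
    intro h
    exact hab.ne (e.injective (Subtype.ext h))
  · intro a b h
    exact e.injective (Subtype.ext h)

/-- Every graph `G` on at least `(m-1)(n-1)+1` vertices whose chromatic number is at most its
clique number, or at most `m - 1`, contains a cycle of length exactly `m` or an independent set
of `n` vertices. -/
theorem result (m n : ℕ) (_ : 3 ≤ m) (hn : 1 ≤ n) (V : Type) [Fintype V] (G : SimpleGraph V)
    (hG : G.chromaticNumber ≤ max G.cliqueNum (m - 1))
    (hV : (m - 1) * (n - 1) + 1 ≤ Fintype.card V) :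
    (SimpleGraph.cycleGraph m).IsContained G ∨ ∃ s : Finset V, G.IsNIndepSet n s := by
  classical
  by_cases hm : m ≤ G.cliqueNum
  · left
    obtain ⟨t, ht⟩ := G.exists_isNClique_cliqueNum
    obtain ⟨s, hst, hs⟩ := Finset.exists_subset_card_eq (s := t) (n := m) (by rw [ht.2]; exact hm)
    exact clique_contains G m s ⟨ht.1.subset (by exact_mod_cast hst), hs⟩
  · right
    have h1 : (max G.cliqueNum (m - 1) : ℕ) = m - 1 := by omega
    have h2 : G.Colorable (m - 1) := by
      rw [← SimpleGraph.chromaticNumber_le_iff_colorable]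
      refine hG.trans ?_
      exact_mod_cast h1.le
    obtain ⟨C⟩ := h2
    obtain ⟨c, -, hc⟩ := Finset.exists_lt_card_fiber_of_mul_lt_card_of_maps_to
      (s := (univ : Finset V)) (t := (univ : Finset (Fin (m - 1)))) (f := fun v => C v)
      (n := n - 1) (fun _ _ => mem_univ _) (by rw [card_univ, card_univ, Fintype.card_fin]; omega)
    obtain ⟨s, hst, hs⟩ := Finset.exists_subset_card_eq
      (s := univ.filter fun v => C v = c) (n := n) (by omega)
    refine ⟨s, ?_, hs⟩
    intro x hx y hy _ hxy
    have hx' := (mem_filter.1 (hst hx)).2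
    have hy' := (mem_filter.1 (hst hy)).2
    exact C.valid hxy (hx'.trans hy'.symm)

end Vale.Agent.Results.P048.ChromaticClique
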